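import Vale.Agent.P075.Cont

namespace Vale.Agent.Results.P075.Dyadic

open MeasureTheory Set

/-- The dyadic interval `[2^k n, 2^k (n+1))`. -/
def dy (k : ℤ) (n : ℕ) : Set ℝ := Ico ((2 : ℝ) ^ k * n) ((2 : ℝ) ^ k * (n + 1))

/-- The Haar function `h_I = 1_{left half} - 1_{right half}` of `I = dy k n`. -/
noncomputable def haar (k : ℤ) (n : ℕ) (x : ℝ) : ℝ :=
  (Ico ((2 : ℝ) ^ k * n) ((2 : ℝ) ^ k * (n + 1 / 2))).indicator (fun _ => (1 : ℝ)) x -
    (Ico ((2 : ℝ) ^ k * (n + 1 / 2)) ((2 : ℝ) ^ k * (n + 1))).indicator (fun _ => (1 : ℝ)) x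

/-- Index triples `(n₀, n₁, n₂)` with bitwise XOR equal to zero. -/
abbrev Triple := {t : ℕ × ℕ × ℕ // t.1 ^^^ t.2.1 ^^^ t.2.2 = 0}

/-- The cube `I₀ × I₁ × I₂`. -/
def cube (k : ℤ) (t : Triple) : Set (ℝ × ℝ × ℝ) := dy k t.1.1 ×ˢ dy k t.1.2.1 ×ˢ dy k t.1.2.2

/-- `F₀(x₀,x₁) F₁(x₁,x₂) F₂(x₂,x₀) h_{I₀}(x₀) h_{I₁}(x₁) h_{I₂}(x₂)`. -/
noncomputable def integrand (F0 F1 F2 : ℝ × ℝ → ℝ) (k : ℤ) (t : Triple) (x : ℝ × ℝ × ℝ) : ℝ :=
  F0 (x.1, x.2.1) * F1 (x.2.1, x.2.2) * F2 (x.2.2, x.1) *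
    (haar k t.1.1 x.1 * haar k t.1.2.1 x.2.1 * haar k t.1.2.2 x.2.2)

/-- `L_I(F₀,F₁,F₂)` for the triple `I` of scale `k` with indices `t`. -/
noncomputable def L (F0 F1 F2 : ℝ × ℝ → ℝ) (k : ℤ) (t : Triple) : ℝ :=
  (2 : ℝ) ^ (-k) * ∫ x in cube k t, integrand F0 F1 F2 k t x

/-- The quadrant `[0,∞)²`. -/
def quad : Set (ℝ × ℝ) := Ici 0 ×ˢ Ici 0

/-- The `L³([0,∞)²)` norm. -/
noncomputable def norm3 (F : ℝ × ℝ → ℝ) : ℝ := (∫ y in quad, |F y| ^ 3) ^ (1 / 3 : ℝ)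

open Vale.Agent.P075

lemma haar_meas (k : ℤ) (n : ℕ) : Measurable (haar k n) :=
  (measurable_const.indicator measurableSet_Ico).sub (measurable_const.indicator measurableSet_Ico)

lemma haar_abs (k : ℤ) (n : ℕ) (x : ℝ) : |haar k n x| ≤ 1 := by
  unfold haar indicator
  split_ifs <;> simp

lemma haar_zero (k : ℤ) (n : ℕ) (x : ℝ) (h : x ∉ dy k n) : haar k n x = 0 := by
  have h2 : (0 : ℝ) < 2 ^ k := by positivity
  unfold haar
  rw [indicator_of_notMem, indicator_of_notMem, sub_zero]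
  · exact fun h1 => h ⟨le_trans (by nlinarith) h1.1, h1.2⟩
  · exact fun h1 => h ⟨h1.1, lt_of_lt_of_le h1.2 (by nlinarith)⟩

lemma haar_shift (k0 : ℤ) (j n i : ℕ) {u : ℝ} (hu : u ∈ Ico 0 ((2 : ℝ) ^ k0)) :
    haar (k0 + j + 1) n ((2 : ℝ) ^ k0 * i + u) = hd j n i := by
  have hδ : (0 : ℝ) < 2 ^ k0 := by positivity
  have e : (2 : ℝ) ^ (k0 + j + 1) = 2 ^ k0 * 2 ^ j * 2 := by
    rw [zpow_add₀ (by norm_num), zpow_add₀ (by norm_num)]; simp
  have e1 : (2 : ℝ) ^ (k0 + j + 1) * n = 2 ^ k0 * ((2 * n * 2 ^ j : ℕ) : ℝ) := by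
    rw [e]; push_cast; ring
  have e2 : (2 : ℝ) ^ (k0 + j + 1) * (n + 1 / 2) = 2 ^ k0 * (((2 * n + 1) * 2 ^ j : ℕ) : ℝ) := by
    rw [e]; push_cast; ring
  have e3 : (2 : ℝ) ^ (k0 + j + 1) * (n + 1) = 2 ^ k0 * (((2 * n + 1 + 1) * 2 ^ j : ℕ) : ℝ) := by
    rw [e]; push_cast; ring
  have d : ∀ a : ℕ, (a * 2 ^ j ≤ i ∧ i < (a + 1) * 2 ^ j) ↔ i / 2 ^ j = a := by
    intro a
    rw [← Nat.le_div_iff_mul_le (by positivity), ← Nat.div_lt_iff_lt_mul (by positivity)]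
    omega
  unfold haar hd indicator
  rw [e1, e2, e3]
  simp only [shift_mem hδ hu, d]
  split_ifs <;> first | omega | simp

lemma integrand_int {F0 F1 F2 : ℝ × ℝ → ℝ} (h0 : MemLp F0 3 (volume.restrict quad))
    (h1 : MemLp F1 3 (volume.restrict quad)) (h2 : MemLp F2 3 (volume.restrict quad))
    (k : ℤ) (t : Triple) (R : ℝ) : IntegrableOn (integrand F0 F1 F2 k t) (box R) := by
  refine triple_int R h0 h1 h2
    (w := fun x => haar k t.1.1 x.1 * haar k t.1.2.1 x.2.1 * haar k t.1.2.2 x.2.2) ?_ ?_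
  · exact (((haar_meas _ _).comp measurable_fst).mul
      ((haar_meas _ _).comp measurable_snd.fst)).mul ((haar_meas _ _).comp measurable_snd.snd)
  · intro x
    rw [abs_mul, abs_mul]
    exact mul_le_one₀ (mul_le_one₀ (haar_abs _ _ _) (abs_nonneg _) (haar_abs _ _ _))
      (abs_nonneg _) (haar_abs _ _ _)

lemma dy_sub (k : ℤ) (n N : ℕ) (h : n < N) : dy k n ⊆ Ico 0 ((2 : ℝ) ^ k * N) := by
  have h2 : (0 : ℝ) < 2 ^ k := by positivity
  have h3 : (n : ℝ) + 1 ≤ N := by exact_mod_cast h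
  exact Ico_subset_Ico (by positivity) (by nlinarith)

/-- the triple determined by its first two indices -/
def mkT (a b : ℕ) : Triple := ⟨(a, b, a ^^^ b), by simp⟩

noncomputable def smp (F : ℝ × ℝ → ℝ) (δ s t : ℝ) : ℕ → ℕ → ℝ :=
  fun a b => F (δ * a + s, δ * b + t)

lemma L_eq {F0 F1 F2 : ℝ × ℝ → ℝ} (h0 : MemLp F0 3 (volume.restrict quad))
    (h1 : MemLp F1 3 (volume.restrict quad)) (h2 : MemLp F2 3 (volume.restrict quad))
    (k0 : ℤ) (K j a b : ℕ) (hj : j < K) (ha : a < 2 ^ (K - (j + 1))) (hb : b < 2 ^ (K - (j + 1))) :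
    IntegrableOn (fun u : R3 => DD (smp F0 (2 ^ k0) u.1 u.2.1) (smp F1 (2 ^ k0) u.2.1 u.2.2)
      (smp F2 (2 ^ k0) u.2.2 u.1) (2 ^ K) j a b (a ^^^ b)) (box (2 ^ k0)) ∧
    L F0 F1 F2 (k0 + j + 1) (mkT a b) = (2 ^ k0)⁻¹ * (2 ^ (j + 1))⁻¹ *
      ∫ u in box (2 ^ k0), DD (smp F0 (2 ^ k0) u.1 u.2.1) (smp F1 (2 ^ k0) u.2.1 u.2.2)
        (smp F2 (2 ^ k0) u.2.2 u.1) (2 ^ K) j a b (a ^^^ b) := by
  have hδ : (0 : ℝ) < 2 ^ k0 := by positivity
  have hI := integrand_int h0 h1 h2 (k0 + j + 1) (mkT a b) ((2 : ℝ) ^ k0 * ((2 ^ K : ℕ) : ℝ))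
  have hc := Nat.xor_lt_two_pow ha hb
  have e : (2 : ℝ) ^ k0 * ((2 ^ K : ℕ) : ℝ) = 2 ^ (k0 + j + 1) * ((2 ^ (K - (j + 1)) : ℕ) : ℝ) := by
    rw [zpow_add₀ (by norm_num), zpow_add₀ (by norm_num)]
    obtain ⟨r, rfl⟩ : ∃ r, K = j + 1 + r := ⟨K - (j + 1), by omega⟩
    rw [Nat.add_sub_cancel_left]
    push_cast; simp only [zpow_natCast, zpow_one]; ring
  have hsub : cube (k0 + j + 1) (mkT a b) ⊆ box ((2 : ℝ) ^ k0 * ((2 ^ K : ℕ) : ℝ)) := by
    rw [e]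
    exact prod_mono (dy_sub _ _ _ ha) (prod_mono (dy_sub _ _ _ hb) (dy_sub _ _ _ hc))
  have hpt : ∀ u ∈ box ((2 : ℝ) ^ k0), ∑ c ∈ idx (2 ^ K),
      integrand F0 F1 F2 (k0 + j + 1) (mkT a b) (sh (2 ^ k0) c + u) =
      DD (smp F0 (2 ^ k0) u.1 u.2.1) (smp F1 (2 ^ k0) u.2.1 u.2.2)
        (smp F2 (2 ^ k0) u.2.2 u.1) (2 ^ K) j a b (a ^^^ b) := by
    intro u hu
    simp only [idx, Finset.sum_product, DD, integrand, sh, smp, mkT, Prod.fst_add, Prod.snd_add,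
      haar_shift k0 j _ _ hu.1, haar_shift k0 j _ _ hu.2.1, haar_shift k0 j _ _ hu.2.2]
  constructor
  · exact (integrable_finsetSum _ fun c hc => cell_int hδ hI hc).congr
      ((ae_restrict_iff' (box_meas _)).2 (Filter.Eventually.of_forall hpt))
  · unfold L
    rw [← setIntegral_eq_of_subset_of_forall_sdiff_eq_zero (box_meas _) hsub, cell_decomp hδ hI,
      setIntegral_congr_fun (box_meas _) hpt]
    · congr 1
      rw [zpow_neg, zpow_add₀ (by norm_num), zpow_add₀ (by norm_num)]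
      simp only [zpow_natCast, zpow_one, pow_succ]; field_simp
    · rintro x ⟨-, hx⟩
      simp only [cube, mem_prod, not_and_or] at hx
      unfold integrand
      rcases hx with hx | hx | hx <;> simp [haar_zero _ _ _ hx]

lemma smp_bound {F : ℝ × ℝ → ℝ} (hF : MemLp F 3 (volume.restrict quad)) {δ : ℝ} (hδ : 0 < δ)
    (M : ℕ) (hM : 0 < M) (π : R3 → ℝ × ℝ) (hπ : π = p01 ∨ π = p12 ∨ π = p20) :
    IntegrableOn (fun u : R3 => ∑ a ∈ Finset.range M, ∑ b ∈ Finset.range M,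
      |smp F δ (π u).1 (π u).2 a b| ^ 3) (box δ) ∧
    ∫ u in box δ, ∑ a ∈ Finset.range M, ∑ b ∈ Finset.range M,
      |smp F δ (π u).1 (π u).2 a b| ^ 3 ≤ δ * ∫ y in quad, |F y| ^ 3 := by
  have hM' : (0 : ℝ) < M := by exact_mod_cast hM
  have hI : IntegrableOn (fun x => |F (π x)| ^ 3) (box (δ * M)) :=
    cube_int (proj_memLp (δ * M) π hπ hF)
  have hpt : ∀ u : R3, ∑ a ∈ Finset.range M, ∑ b ∈ Finset.range M,
      |smp F δ (π u).1 (π u).2 a b| ^ 3 = (M : ℝ)⁻¹ * ∑ c ∈ idx M, |F (π (sh δ c + u))| ^ 3 := by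
    intro u
    rw [eq_inv_mul_iff_mul_eq₀ hM'.ne']
    rcases hπ with rfl | rfl | rfl
    · simp [idx, Finset.sum_product, smp, p01, sh, Finset.mul_sum]
    · simp [idx, Finset.sum_product, smp, p12, sh]
    · simp only [idx, Finset.sum_product, smp, p20, sh, Prod.fst_add, Prod.snd_add,
        Finset.sum_const, Finset.card_range, nsmul_eq_mul]
      rw [Finset.sum_comm, Finset.mul_sum]
  simp only [hpt]
  refine ⟨(integrable_finsetSum _ fun c hc => cell_int hδ hI hc).const_mul _, ?_⟩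
  rw [integral_const_mul, ← cell_decomp hδ hI, inv_mul_le_iff₀ hM', ← mul_assoc, mul_comm (M : ℝ)]
  exact proj_integral (by positivity) π hπ hF

lemma full_sum {F0 F1 F2 : ℝ × ℝ → ℝ} (h0 : MemLp F0 3 (volume.restrict quad))
    (h1 : MemLp F1 3 (volume.restrict quad)) (h2 : MemLp F2 3 (volume.restrict quad))
    (k0 : ℤ) (K : ℕ) :
    ∑ j ∈ Finset.range K, ∑ a ∈ Finset.range (2 ^ (K - (j + 1))),
      ∑ b ∈ Finset.range (2 ^ (K - (j + 1))), |L F0 F1 F2 (k0 + j + 1) (mkT a b)| ≤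
      18 * ((∫ y in quad, |F0 y| ^ 3) + (∫ y in quad, |F1 y| ^ 3) + ∫ y in quad, |F2 y| ^ 3) := by
  have hδ : (0 : ℝ) < 2 ^ k0 := by positivity
  obtain ⟨D, hD⟩ : ∃ D : R3 → ℕ → ℕ → ℕ → ℝ, ∀ u j a b, D u j a b =
      DD (smp F0 (2 ^ k0) u.1 u.2.1) (smp F1 (2 ^ k0) u.2.1 u.2.2)
        (smp F2 (2 ^ k0) u.2.2 u.1) (2 ^ K) j a b (a ^^^ b) := ⟨_, fun _ _ _ _ => rfl⟩
  have hL := fun j a b hj ha hb => L_eq h0 h1 h2 k0 K j a b hj ha hb
  simp only [← hD] at hL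
  have s0 := smp_bound h0 hδ (2 ^ K) (by positivity) p01 (Or.inl rfl)
  have s1 := smp_bound h1 hδ (2 ^ K) (by positivity) p12 (Or.inr (Or.inl rfl))
  have s2 := smp_bound h2 hδ (2 ^ K) (by positivity) p20 (Or.inr (Or.inr rfl))
  have i1 : ∀ j ∈ Finset.range K, ∀ a ∈ Finset.range (2 ^ (K - (j + 1))),
      Integrable (fun u => ∑ b ∈ Finset.range (2 ^ (K - (j + 1))), |D u j a b|)
        (volume.restrict (box (2 ^ k0))) := fun j hj a ha =>
    integrable_finsetSum _ fun b hb =>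
      (hL j a b (Finset.mem_range.1 hj) (Finset.mem_range.1 ha) (Finset.mem_range.1 hb)).1.abs
  have i2 : ∀ j ∈ Finset.range K, Integrable (fun u => (∑ a ∈ Finset.range (2 ^ (K - (j + 1))),
      ∑ b ∈ Finset.range (2 ^ (K - (j + 1))), |D u j a b|) / 2 ^ (j + 1))
        (volume.restrict (box (2 ^ k0))) := fun j hj =>
    (integrable_finsetSum _ (i1 j hj)).div_const _
  have step1 : ∑ j ∈ Finset.range K, ∑ a ∈ Finset.range (2 ^ (K - (j + 1))),
      ∑ b ∈ Finset.range (2 ^ (K - (j + 1))), |L F0 F1 F2 (k0 + j + 1) (mkT a b)| ≤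
      (2 ^ k0)⁻¹ * ∫ u in box (2 ^ k0), ∑ j ∈ Finset.range K,
        (∑ a ∈ Finset.range (2 ^ (K - (j + 1))),
          ∑ b ∈ Finset.range (2 ^ (K - (j + 1))), |D u j a b|) / 2 ^ (j + 1) := by
    rw [integral_finsetSum _ i2, Finset.mul_sum]
    refine Finset.sum_le_sum fun j hj => ?_
    rw [integral_div, integral_finsetSum _ (i1 j hj), Finset.sum_div, Finset.mul_sum]
    refine Finset.sum_le_sum fun a ha => ?_
    rw [integral_finsetSum _ fun b hb => (hL j a b (Finset.mem_range.1 hj)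
      (Finset.mem_range.1 ha) (Finset.mem_range.1 hb)).1.abs, Finset.sum_div, Finset.mul_sum]
    refine Finset.sum_le_sum fun b hb => ?_
    rw [(hL j a b (Finset.mem_range.1 hj) (Finset.mem_range.1 ha) (Finset.mem_range.1 hb)).2,
      abs_mul, abs_of_pos (by positivity), mul_assoc, div_eq_inv_mul]
    exact mul_le_mul_of_nonneg_left (mul_le_mul_of_nonneg_left abs_integral_le_integral_abs
      (by positivity)) (by positivity)
  refine step1.trans ?_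
  rw [inv_mul_le_iff₀ hδ]
  refine le_trans (integral_mono (integrable_finsetSum _ i2)
    (((s0.1.add s1.1).add s2.1).const_mul 18) fun u => ?_) ?_
  · have := discrete (smp F0 (2 ^ k0) u.1 u.2.1) (smp F1 (2 ^ k0) u.2.1 u.2.2)
      (smp F2 (2 ^ k0) u.2.2 u.1) K
    simp only [← hD, Finset.sum_add_distrib] at this
    exact this
  · rw [integral_const_mul, integral_add' (s0.1.add s1.1) s2.1, integral_add' s0.1 s1.1]
    have := s0.2; have := s1.2; have := s2.2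
    linarith

lemma additive {F0 F1 F2 : ℝ × ℝ → ℝ} (h0 : MemLp F0 3 (volume.restrict quad))
    (h1 : MemLp F1 3 (volume.restrict quad)) (h2 : MemLp F2 3 (volume.restrict quad))
    (T : Finset (ℤ × Triple)) : ∑ p ∈ T, |L F0 F1 F2 p.1 p.2| ≤
      18 * ((∫ y in quad, |F0 y| ^ 3) + (∫ y in quad, |F1 y| ^ 3) + ∫ y in quad, |F2 y| ^ 3) := by
  classical
  obtain ⟨k1, hk1⟩ := (T.image Prod.fst).bddBelow
  have hk : ∀ p ∈ T, k1 ≤ p.1 := fun p hp => hk1 (Finset.mem_coe.2 (Finset.mem_image_of_mem _ hp))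
  have hev : ∀ᶠ K : ℕ in Filter.atTop, ∀ p ∈ T, (p.1 - k1).toNat < K ∧
      p.2.1.1 < 2 ^ (K - ((p.1 - k1).toNat + 1)) ∧
      p.2.1.2.1 < 2 ^ (K - ((p.1 - k1).toNat + 1)) := by
    rw [Filter.eventually_all_finset]
    intro p _
    filter_upwards [Filter.eventually_ge_atTop ((p.1 - k1).toNat + 1 + p.2.1.1 + p.2.1.2.1)]
      with K hK
    refine ⟨by omega, ?_, ?_⟩
    · exact lt_of_lt_of_le Nat.lt_two_pow_self (Nat.pow_le_pow_right (by norm_num) (by omega))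
    · exact lt_of_lt_of_le Nat.lt_two_pow_self (Nat.pow_le_pow_right (by norm_num) (by omega))
  obtain ⟨K, hK⟩ := hev.exists
  refine le_trans ?_ (full_sum h0 h1 h2 (k1 - 1) K)
  simp only [← Finset.sum_product', Finset.sum_sigma']
  have himg : ∀ {ι : Type} (S : Finset ι) (g : ι → ℤ × Triple),
      ∑ p ∈ S.image g, |L F0 F1 F2 p.1 p.2| ≤ ∑ i ∈ S, |L F0 F1 F2 (g i).1 (g i).2| := by
    intro ι S g
    induction S using Finset.induction_on with
    | empty => simp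
    | insert a S ha ih =>
      rw [Finset.image_insert, Finset.sum_insert ha]
      by_cases h : g a ∈ S.image g
      · rw [Finset.insert_eq_of_mem h]
        have := abs_nonneg (L F0 F1 F2 (g a).1 (g a).2)
        linarith
      · rw [Finset.sum_insert h]; linarith
  refine le_trans (Finset.sum_le_sum_of_subset_of_nonneg ?_ fun _ _ _ => abs_nonneg _)
    (himg _ (fun x : (_ : ℕ) × (ℕ × ℕ) => (k1 - 1 + x.1 + 1, mkT x.2.1 x.2.2)))
  rintro ⟨k, ⟨a, b, c⟩, h⟩ hp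
  obtain ⟨q1, q2, q3⟩ := hK _ hp
  have q4 := hk _ hp
  refine Finset.mem_image.2 ⟨⟨(k - k1).toNat, (a, b)⟩, ?_, ?_⟩
  · simp only [Finset.mem_sigma, Finset.mem_range, Finset.mem_product]
    exact ⟨q1, q2, q3⟩
  · have hc : a ^^^ b = c := Nat.xor_eq_zero_iff.1 h
    subst hc
    refine Prod.ext ?_ rfl
    simp only at q4 ⊢
    omega

lemma L_smul (F0 F1 F2 : ℝ × ℝ → ℝ) (a b c : ℝ) (k : ℤ) (t : Triple) :
    L (a • F0) (b • F1) (c • F2) k t = a * b * c * L F0 F1 F2 k t := by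
  unfold L
  have : ∀ x, integrand (a • F0) (b • F1) (c • F2) k t x =
      a * b * c * integrand F0 F1 F2 k t x := by
    intro x; simp only [integrand, Pi.smul_apply, smul_eq_mul]; ring
  simp only [this, integral_const_mul]; ring

lemma norm3_nonneg (F : ℝ × ℝ → ℝ) : 0 ≤ norm3 F :=
  Real.rpow_nonneg (integral_nonneg fun y => by positivity) _

lemma norm3_cube (F : ℝ × ℝ → ℝ) : ∫ y in quad, |F y| ^ 3 = norm3 F ^ 3 := by
  unfold norm3
  rw [← Real.rpow_natCast, ← Real.rpow_mul (integral_nonneg fun y => by positivity)]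
  norm_num

lemma scaled_le (F : ℝ × ℝ → ℝ) {η : ℝ} (hη : 0 < η) :
    ∫ y in quad, |((norm3 F + η)⁻¹ • F) y| ^ 3 ≤ 1 := by
  have h := norm3_nonneg F
  have h1 : 0 < norm3 F + η := by linarith
  simp only [Pi.smul_apply, smul_eq_mul, abs_mul, mul_pow, integral_const_mul, norm3_cube]
  rw [abs_of_pos (inv_pos.2 h1), ← mul_pow]
  refine pow_le_one₀ (by positivity) ?_
  rw [inv_mul_le_iff₀ h1]; linarith

lemma product {F0 F1 F2 : ℝ × ℝ → ℝ} (h0 : MemLp F0 3 (volume.restrict quad))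
    (h1 : MemLp F1 3 (volume.restrict quad)) (h2 : MemLp F2 3 (volume.restrict quad))
    (T : Finset (ℤ × Triple)) :
    ∑ p ∈ T, |L F0 F1 F2 p.1 p.2| ≤ 54 * (norm3 F0 * norm3 F1 * norm3 F2) := by
  have key : ∀ η : ℝ, 0 < η → ∑ p ∈ T, |L F0 F1 F2 p.1 p.2| ≤
      54 * ((norm3 F0 + η) * (norm3 F1 + η) * (norm3 F2 + η)) := by
    intro η hη
    have n0 : 0 < norm3 F0 + η := by linarith [norm3_nonneg F0]
    have n1 : 0 < norm3 F1 + η := by linarith [norm3_nonneg F1]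
    have n2 : 0 < norm3 F2 + η := by linarith [norm3_nonneg F2]
    have h := additive (h0.const_smul (norm3 F0 + η)⁻¹) (h1.const_smul (norm3 F1 + η)⁻¹)
      (h2.const_smul (norm3 F2 + η)⁻¹) T
    have s0 := scaled_le F0 hη
    have s1 := scaled_le F1 hη
    have s2 := scaled_le F2 hη
    simp only [L_smul, abs_mul (_ * _ * _ : ℝ), ← Finset.mul_sum] at h
    rw [abs_of_pos (by positivity), ← mul_inv, ← mul_inv, inv_mul_le_iff₀ (by positivity)] at h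
    have : 0 < (norm3 F0 + η) * (norm3 F1 + η) * (norm3 F2 + η) := by positivity
    nlinarith
  have hc : Continuous fun η : ℝ =>
      54 * ((norm3 F0 + η) * (norm3 F1 + η) * (norm3 F2 + η)) := by fun_prop
  have ht := (hc.tendsto 0).mono_left (nhdsWithin_le_nhds (s := Ioi 0))
  simp only [add_zero] at ht
  exact ge_of_tendsto ht (eventually_nhdsWithin_of_forall fun η hη => key η hη)

theorem result : ∃ C : ℝ, ∀ F0 F1 F2 : ℝ × ℝ → ℝ,
    MemLp F0 3 (volume.restrict quad) → MemLp F1 3 (volume.restrict quad) →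
    MemLp F2 3 (volume.restrict quad) →
    (∀ k t, IntegrableOn (integrand F0 F1 F2 k t) (cube k t)) ∧
    (∀ k, Summable (fun t : Triple => L F0 F1 F2 k t)) ∧
    (∀ (S : Finset ℤ) (ε : ℤ → ℝ), (∀ k ∈ S, |ε k| ≤ 1) →
      |∑ k ∈ S, ε k * ∑' t : Triple, L F0 F1 F2 k t| ≤ C * (norm3 F0 * norm3 F1 * norm3 F2)) ∧
    (∀ T : Finset (ℤ × Triple),
      ∑ p ∈ T, |L F0 F1 F2 p.1 p.2| ≤ C * (norm3 F0 * norm3 F1 * norm3 F2)) := by
  refine ⟨54, fun F0 F1 F2 h0 h1 h2 => ?_⟩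
  have hP := product h0 h1 h2
  have hs : ∀ k, Summable (fun t : Triple => |L F0 F1 F2 k t|) := by
    intro k
    refine summable_of_sum_le (fun _ => abs_nonneg _) fun U => le_trans (le_of_eq ?_) (hP ({k} ×ˢ U))
    rw [Finset.sum_product]; simp
  refine ⟨fun k t => ?_, fun k => (hs k).of_abs, fun S ε hε => ?_, hP⟩
  · refine (integrand_int h0 h1 h2 k t
      ((2 : ℝ) ^ k * ((t.1.1 + t.1.2.1 + t.1.2.2 + 1 : ℕ) : ℝ))).mono_set ?_
    exact prod_mono (dy_sub _ _ _ (by omega))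
      (prod_mono (dy_sub _ _ _ (by omega)) (dy_sub _ _ _ (by omega)))
  · refine (Finset.abs_sum_le_sum_abs _ _).trans ?_
    have h3 : ∀ k ∈ S, |ε k * ∑' t : Triple, L F0 F1 F2 k t| ≤
        ∑' t : Triple, |L F0 F1 F2 k t| := by
      intro k hk
      rw [abs_mul]
      refine (mul_le_of_le_one_left (abs_nonneg _) (hε k hk)).trans ?_
      have := norm_tsum_le_tsum_norm (f := fun t : Triple => L F0 F1 F2 k t) (hs k)
      simpa only [Real.norm_eq_abs] using this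
    refine (Finset.sum_le_sum h3).trans ?_
    rw [← Summable.tsum_finsetSum fun k _ => hs k]
    refine (summable_sum fun k _ => hs k).tsum_le_of_sum_le fun U => ?_
    refine le_trans (le_of_eq ?_) (hP (S ×ˢ U))
    rw [Finset.sum_product, Finset.sum_comm]

end Vale.Agent.Results.P075.Dyadic
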